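import Vale.Agent.Lib.P037.Statement

/-!
# P037, blow-ups: abstract counting lemma for the duplication of one line of a pattern
-/

namespace Vale.Agent.Lib.P037B
open Finset

open Classical in
/-- abstract copies: a strictly increasing tuple `r` together with some other data `z` such that
the `i`-th line `r i` is admissible for the index `i` (relative to `z`). -/
noncomputable def SetC {Z : Type} [Fintype Z] {a n : ℕ} (W : Fin a → Fin n → Z → Prop) :
    Finset ((Fin a → Fin n) × Z) :=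
  univ.filter fun x => StrictMono x.1 ∧ ∀ i, W i (x.1 i) x.2

theorem mem_SetC {Z : Type} [Fintype Z] {a n : ℕ} (W : Fin a → Fin n → Z → Prop)
    (x : (Fin a → Fin n) × Z) : x ∈ SetC W ↔ StrictMono x.1 ∧ ∀ i, W i (x.1 i) x.2 := by
  unfold SetC
  simp

theorem pa_val {a : ℕ} (p : Fin (a + 1)) (i : Fin (a + 2)) :
    (p.predAbove i).val = if i.val ≤ p.val then i.val else i.val - 1 := by
  unfold Fin.predAbove
  split_ifs with h h' h'
  · rw [Fin.lt_def] at h; simp at h; omega
  · simp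
  · simp
  · rw [Fin.lt_def] at h; simp at h; omega

/-- glue two tuples: `r` up to the place `p`, then `r'` from the place `p` on. -/
def glueT {a n : ℕ} (p : Fin (a + 1)) (r r' : Fin (a + 1) → Fin n) : Fin (a + 2) → Fin n :=
  fun i => if i.val ≤ p.val then r (p.predAbove i) else r' (p.predAbove i)

theorem glueT_castSucc {a n : ℕ} (p : Fin (a + 1)) (r r' : Fin (a + 1) → Fin n) (i : Fin (a + 1))
    (h : i ≤ p) : glueT p r r' i.castSucc = r i := by
  unfold glueT
  rw [if_pos (by simpa using h), Fin.predAbove_castSucc_of_le p i h]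

theorem glueT_succ {a n : ℕ} (p : Fin (a + 1)) (r r' : Fin (a + 1) → Fin n) (i : Fin (a + 1))
    (h : p ≤ i) : glueT p r r' i.succ = r' i := by
  unfold glueT
  rw [if_neg (by rw [Fin.le_def] at h; simp; omega), Fin.predAbove_succ_of_le p i h]

theorem glueT_strictMono {a n : ℕ} (p : Fin (a + 1)) (r r' : Fin (a + 1) → Fin n)
    (hr : StrictMono r) (hr' : StrictMono r') (hp : r p < r' p) : StrictMono (glueT p r r') := by
  intro i j hij
  have hij' : i.val < j.val := hij
  unfold glueT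
  split_ifs with hi hj hj
  · apply hr
    rw [Fin.lt_def, pa_val, pa_val, if_pos hi, if_pos hj]
    exact hij'
  · have h1 : r (p.predAbove i) ≤ r p := by
      apply hr.monotone
      rw [Fin.le_def, pa_val, if_pos hi]
      exact hi
    have h2 : r' p ≤ r' (p.predAbove j) := by
      apply hr'.monotone
      rw [Fin.le_def, pa_val, if_neg hj]
      omega
    exact lt_of_le_of_lt h1 (lt_of_lt_of_le hp h2)
  · omega
  · apply hr'
    rw [Fin.lt_def, pa_val, pa_val, if_neg hi, if_neg hj]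
    omega

/-- the pairs of copies with the same key and `x.1 p < y.1 p` inject into the copies of the
duplicated pattern. -/
theorem card_lt_pairs_le {Z : Type} [Fintype Z] [DecidableEq Z] {a n : ℕ} (p : Fin (a + 1))
    (W : Fin (a + 1) → Fin n → Z → Prop) :
    #((SetC W ×ˢ SetC W).filter fun xy =>
        ((xy.1.1 ∘ p.succAbove, xy.1.2) = (xy.2.1 ∘ p.succAbove, xy.2.2)) ∧ xy.1.1 p < xy.2.1 p)
      ≤ #(SetC (fun i : Fin (a + 2) => W (p.predAbove i))) := by
  have agree : ∀ x y : (Fin (a + 1) → Fin n) × Z,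
      (x.1 ∘ p.succAbove, x.2) = (y.1 ∘ p.succAbove, y.2) →
        (∀ i, i ≠ p → x.1 i = y.1 i) ∧ x.2 = y.2 := by
    intro x y h
    refine ⟨?_, (Prod.ext_iff.1 h).2⟩
    intro i hi
    obtain ⟨j, rfl⟩ := Fin.exists_succAbove_eq hi
    exact congrFun (Prod.ext_iff.1 h).1 j
  apply Finset.card_le_card_of_injOn (fun xy => (glueT p xy.1.1 xy.2.1, xy.1.2))
  · intro xy hxy
    rw [Finset.mem_coe, Finset.mem_filter, Finset.mem_product, mem_SetC, mem_SetC] at hxy
    obtain ⟨⟨⟨hx1, hx2⟩, ⟨hy1, hy2⟩⟩, hkey, hlt⟩ := hxy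
    rw [Finset.mem_coe, mem_SetC]
    refine ⟨glueT_strictMono p _ _ hx1 hy1 hlt, ?_⟩
    intro i
    show W (p.predAbove i) (glueT p xy.1.1 xy.2.1 i) xy.1.2
    unfold glueT
    split_ifs with hi
    · exact hx2 _
    · rw [(agree _ _ hkey).2]
      exact hy2 _
  · intro xy hxy uv huv heq
    rw [Finset.mem_coe, Finset.mem_filter] at hxy huv
    obtain ⟨-, hkey, -⟩ := hxy
    obtain ⟨-, hkey', -⟩ := huv
    obtain ⟨ag, agz⟩ := agree _ _ hkey
    obtain ⟨ag', agz'⟩ := agree _ _ hkey'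
    have hg : glueT p xy.1.1 xy.2.1 = glueT p uv.1.1 uv.2.1 := (Prod.ext_iff.1 heq).1
    have hz : xy.1.2 = uv.1.2 := (Prod.ext_iff.1 heq).2
    have lo : ∀ i, i ≤ p → xy.1.1 i = uv.1.1 i := by
      intro i hi
      have := congrFun hg i.castSucc
      rwa [glueT_castSucc p _ _ i hi, glueT_castSucc p _ _ i hi] at this
    have hi' : ∀ i, p ≤ i → xy.2.1 i = uv.2.1 i := by
      intro i hi
      have := congrFun hg i.succ
      rwa [glueT_succ p _ _ i hi, glueT_succ p _ _ i hi] at this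
    have e1 : xy.1.1 = uv.1.1 := by
      funext i
      rcases le_or_gt i p with h | h
      · exact lo i h
      · rw [ag i (ne_of_gt h), ag' i (ne_of_gt h)]
        exact hi' i h.le
    have e2 : xy.2.1 = uv.2.1 := by
      funext i
      rcases le_or_gt p i with h | h
      · exact hi' i h
      · rw [← ag i (ne_of_lt h), ← ag' i (ne_of_lt h)]
        exact lo i h.le
    have e3 : xy.2.2 = uv.2.2 := by rw [← agz, ← agz', hz]
    exact Prod.ext (Prod.ext e1 hz) (Prod.ext e2 e3)

/-- B1 (helper9).  DUPLICATION OF THE LINE `p`.  Fibre the copies over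
`key (r,z) = (r ∘ p.succAbove, z)` (at most `n^a * card Z` keys), Cauchy-Schwarz:
`N^2 ≤ keys * #{(x,y) : key x = key y}`; pairs with `x.1 p = y.1 p` are diagonal (`N` of them), pairs
with `x.1 p < y.1 p` inject into the copies of the duplicated pattern by
`i ↦ if i ≤ p.castSucc then r (p.predAbove i) else r' (p.predAbove i)`; the pairs with `>` by symmetry. -/
theorem dup_count {Z : Type} [Fintype Z] {a n : ℕ} (p : Fin (a + 1))
    (W : Fin (a + 1) → Fin n → Z → Prop) :
    (#(SetC W)) ^ 2 ≤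
      (2 * #(SetC (fun i : Fin (a + 2) => W (p.predAbove i))) + #(SetC W)) *
        (n ^ a * Fintype.card Z) := by
  classical
  set S := SetC W with hS
  set S' := SetC (fun i : Fin (a + 2) => W (p.predAbove i)) with hS'
  let key : (Fin (a + 1) → Fin n) × Z → (Fin a → Fin n) × Z := fun x => (x.1 ∘ p.succAbove, x.2)
  set Q := (S ×ˢ S).filter (fun xy => key xy.1 = key xy.2) with hQ
  -- Cauchy-Schwarz
  have hcard : #(univ : Finset ((Fin a → Fin n) × Z)) = n ^ a * Fintype.card Z := by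
    rw [Finset.card_univ, Fintype.card_prod, Fintype.card_fun, Fintype.card_fin, Fintype.card_fin]
  have hSsum : #S = ∑ κ ∈ (univ : Finset ((Fin a → Fin n) × Z)), #(S.filter fun x => key x = κ) :=
    Finset.card_eq_sum_card_fiberwise (fun _ _ => Finset.mem_coe.2 (Finset.mem_univ _))
  have hQsum : #Q = ∑ κ ∈ (univ : Finset ((Fin a → Fin n) × Z)),
      #(S.filter fun x => key x = κ) ^ 2 := by
    rw [Finset.card_eq_sum_card_fiberwise (f := fun xy => key xy.1) (s := Q)
      (t := (univ : Finset ((Fin a → Fin n) × Z)))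
      (fun _ _ => Finset.mem_coe.2 (Finset.mem_univ _))]
    refine Finset.sum_congr rfl fun κ _ => ?_
    rw [sq, ← Finset.card_product]
    congr 1
    ext xy
    simp only [hQ, Finset.mem_filter, Finset.mem_product]
    constructor
    · rintro ⟨⟨⟨h1, h2⟩, h3⟩, h4⟩
      exact ⟨⟨h1, h4⟩, ⟨h2, by rw [← h3, h4]⟩⟩
    · rintro ⟨⟨h1, h4⟩, ⟨h2, h5⟩⟩
      exact ⟨⟨⟨h1, h2⟩, by rw [h4, h5]⟩, h4⟩
  have hCS : #S ^ 2 ≤ (n ^ a * Fintype.card Z) * #Q := by
    rw [hSsum, hQsum, ← hcard]
    exact_mod_cast sq_sum_le_card_mul_sum_sq (s := (univ : Finset ((Fin a → Fin n) × Z)))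
      (f := fun κ => #(S.filter fun x => key x = κ))
  -- splitting of the pairs
  set Qlt := (S ×ˢ S).filter (fun xy => key xy.1 = key xy.2 ∧ xy.1.1 p < xy.2.1 p) with hQlt
  set Qgt := (S ×ˢ S).filter (fun xy => key xy.1 = key xy.2 ∧ xy.2.1 p < xy.1.1 p) with hQgt
  set Qeq := (S ×ˢ S).filter (fun xy => key xy.1 = key xy.2 ∧ xy.1.1 p = xy.2.1 p) with hQeq
  have hlt : #Qlt ≤ #S' := card_lt_pairs_le p W
  have hgt : #Qgt ≤ #Qlt := by
    apply Finset.card_le_card_of_injOn Prod.swap
    · intro xy hxy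
      rw [Finset.mem_coe, hQgt, Finset.mem_filter, Finset.mem_product] at hxy
      rw [Finset.mem_coe, hQlt, Finset.mem_filter, Finset.mem_product]
      exact ⟨⟨hxy.1.2, hxy.1.1⟩, hxy.2.1.symm, hxy.2.2⟩
    · exact Prod.swap_injective.injOn
  have heq : #Qeq ≤ #S := by
    apply Finset.card_le_card_of_injOn Prod.fst
    · intro xy hxy
      rw [Finset.mem_coe, hQeq, Finset.mem_filter, Finset.mem_product] at hxy
      exact Finset.mem_coe.2 hxy.1.1
    · have diag : ∀ xy ∈ Qeq, xy.2 = xy.1 := by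
        intro xy hxy
        rw [hQeq, Finset.mem_filter] at hxy
        obtain ⟨-, hkey, hp⟩ := hxy
        refine Prod.ext ?_ (Prod.ext_iff.1 hkey).2.symm
        funext i
        by_cases hi : i = p
        · rw [hi, hp]
        · obtain ⟨j, rfl⟩ := Fin.exists_succAbove_eq hi
          exact (congrFun (Prod.ext_iff.1 hkey).1 j).symm
      intro xy hxy uv huv h
      have h1 := diag xy (Finset.mem_coe.1 hxy)
      have h2 := diag uv (Finset.mem_coe.1 huv)
      exact Prod.ext h (by rw [h1, h2]; exact h)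
  have hsub : Q ⊆ Qlt ∪ Qgt ∪ Qeq := by
    intro xy hxy
    rw [hQ, Finset.mem_filter] at hxy
    rw [Finset.mem_union, Finset.mem_union, hQlt, hQgt, hQeq, Finset.mem_filter, Finset.mem_filter,
      Finset.mem_filter]
    rcases lt_trichotomy (xy.1.1 p) (xy.2.1 p) with h | h | h
    · exact Or.inl (Or.inl ⟨hxy.1, hxy.2, h⟩)
    · exact Or.inr ⟨hxy.1, hxy.2, h⟩
    · exact Or.inl (Or.inr ⟨hxy.1, hxy.2, h⟩)
  have hQle : #Q ≤ 2 * #S' + #S := by
    calc #Q ≤ #(Qlt ∪ Qgt ∪ Qeq) := Finset.card_le_card hsub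
      _ ≤ #(Qlt ∪ Qgt) + #Qeq := Finset.card_union_le _ _
      _ ≤ #Qlt + #Qgt + #Qeq := Nat.add_le_add_right (Finset.card_union_le _ _) _
      _ ≤ 2 * #S' + #S := by omega
  calc #S ^ 2 ≤ (n ^ a * Fintype.card Z) * #Q := hCS
    _ ≤ (n ^ a * Fintype.card Z) * (2 * #S' + #S) := Nat.mul_le_mul_left _ hQle
    _ = (2 * #S' + #S) * (n ^ a * Fintype.card Z) := Nat.mul_comm _ _

end Vale.Agent.Lib.P037B
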