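import Vale.Agent.Lib.P037B.Step

/-!
# P037, blow-ups: general blow-ups (monotone surjections)
-/

namespace Vale.Agent.Lib.P037B
open Finset
open Vale.Agent.Lib.P037

/-- B4a. A monotone non-injective map takes the same value at two consecutive places. -/
theorem exists_consecutive {m k : ℕ} (ρ : Fin (m + 1) → Fin k) (hρ : Monotone ρ)
    (hni : ¬ Function.Injective ρ) : ∃ p : Fin m, ρ p.castSucc = ρ p.succ := by
  by_contra hcon
  push Not at hcon
  apply hni
  have : StrictMono ρ := by
    rw [Fin.strictMono_iff_lt_succ]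
    intro i
    exact lt_of_le_of_ne (hρ (Fin.castSucc_lt_succ).le) (hcon i)
  exact this.injective

/-- B4b. factor through the elementary degeneracy `p.predAbove`; `ρ₁ = ρ ∘ p.succ.succAbove`. -/
theorem factor_predAbove {m k : ℕ} (ρ : Fin (m + 1) → Fin k) (hρ : Monotone ρ)
    (hs : Function.Surjective ρ) (p : Fin m) (hp : ρ p.castSucc = ρ p.succ) :
    ∃ ρ₁ : Fin m → Fin k, Monotone ρ₁ ∧ Function.Surjective ρ₁ ∧ ∀ i, ρ i = ρ₁ (p.predAbove i) := by
  have key : ∀ i, ρ i = ρ (p.succ.succAbove (p.predAbove i)) := by
    intro i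
    by_cases h : i = p.succ
    · subst h
      rw [Fin.predAbove_succ_self, Fin.succAbove_succ_self, hp]
    · rw [Fin.succ_succAbove_predAbove h]
  refine ⟨fun i => ρ (p.succ.succAbove i), ?_, ?_, key⟩
  · exact hρ.comp (Fin.strictMono_succAbove _).monotone
  · intro y
    obtain ⟨i, rfl⟩ := hs y
    exact ⟨p.predAbove i, (key i).symm⟩

/-- B4c. a monotone bijection of `Fin k` is the identity. -/
theorem eq_id_of_monotone_bijective {k : ℕ} (ρ : Fin k → Fin k) (hρ : Monotone ρ)
    (hb : Function.Bijective ρ) : ρ = id := by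
  have hst : StrictMono ρ := hρ.strictMono_of_injective hb.1
  have e := Subsingleton.elim (StrictMono.orderIsoOfSurjective ρ hst hb.2) (OrderIso.refl _)
  funext x
  have := congrArg (fun f : Fin k ≃o Fin k => f x) e
  simpa using this

theorem blowup_of_injective {k k' : ℕ} (H : Matrix (Fin k) (Fin k) Bool) (ρ γ : Fin k' → Fin k)
    (hρ : Monotone ρ) (hρs : Function.Surjective ρ) (hγ : Monotone γ)
    (hγs : Function.Surjective γ) (hinj : Function.Injective ρ) (h : PolyRemoval H) :
    PolyRemoval (H.submatrix ρ γ) := by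
  have hk : k' = k := by
    have := Fintype.card_of_bijective ⟨hinj, hρs⟩
    simpa using this
  subst hk
  have hγi : Function.Injective γ := Finite.injective_iff_surjective.2 hγs
  have e1 : ρ = id := eq_id_of_monotone_bijective ρ hρ ⟨hinj, hρs⟩
  have e2 : γ = id := eq_id_of_monotone_bijective γ hγ ⟨hγi, hγs⟩
  rw [e1, e2, Matrix.submatrix_id_id]
  exact h

theorem injective_of_injective {k k' : ℕ} (ρ γ : Fin k' → Fin k)
    (hρs : Function.Surjective ρ) (hγs : Function.Surjective γ) (hinj : Function.Injective γ) :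
    Function.Injective ρ := by
  have hk : k' = k := by
    have := Fintype.card_of_bijective ⟨hinj, hγs⟩
    simpa using this
  subst hk
  exact Finite.injective_iff_surjective.2 hρs

/-- B4d. BLOW-UPS.  Induction on `k'` (generalising `ρ γ`).  If `ρ` is injective then `k' = k`, `γ` is
bijective as well, both are `id`.  Otherwise `k < k'`, none of them is injective, `k' = m + 1`,
`m = m' + 1` (there is `p : Fin m`), factor both, induction hypothesis + `polyRemoval_dup`. -/
theorem polyRemoval_blowup {k k' : ℕ} (H : Matrix (Fin k) (Fin k) Bool) (ρ γ : Fin k' → Fin k)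
    (hρ : Monotone ρ) (hρs : Function.Surjective ρ) (hγ : Monotone γ)
    (hγs : Function.Surjective γ) (h : PolyRemoval H) : PolyRemoval (H.submatrix ρ γ) := by
  induction k' with
  | zero =>
    exact blowup_of_injective H ρ γ hρ hρs hγ hγs (Function.injective_of_subsingleton ρ) h
  | succ m ih =>
    by_cases hinj : Function.Injective ρ
    · exact blowup_of_injective H ρ γ hρ hρs hγ hγs hinj h
    · have hinj' : ¬ Function.Injective γ := fun hg =>
        hinj (injective_of_injective ρ γ hρs hγs hg)
      obtain ⟨p, hp⟩ := exists_consecutive ρ hρ hinj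
      obtain ⟨q, hq⟩ := exists_consecutive γ hγ hinj'
      obtain ⟨ρ₁, m1, s1, f1⟩ := factor_predAbove ρ hρ hρs p hp
      obtain ⟨γ₁, m2, s2, f2⟩ := factor_predAbove γ hγ hγs q hq
      have ih' := ih ρ₁ γ₁ m1 s1 m2 s2
      cases m with
      | zero => exact p.elim0
      | succ m' =>
        have hd := polyRemoval_dup (H.submatrix ρ₁ γ₁) p q ih'
        have e : (H.submatrix ρ₁ γ₁).submatrix p.predAbove q.predAbove = H.submatrix ρ γ := by
          ext i j
          simp only [Matrix.submatrix_apply]
          rw [f1 i, f2 j]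
        rw [← e]
        exact hd

end Vale.Agent.Lib.P037B
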