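import Vale.Agent.Lib.P037B.Count

/-!
# P037, blow-ups: rectangular patterns, duplication of a row / of a column
-/

namespace Vale.Agent.Lib.P037B
open Finset
open Vale.Agent.Lib.P037

open Classical in
/-- number of ordered copies of a rectangular pattern. -/
noncomputable def cntR {a b n : ℕ} (H : Matrix (Fin a) (Fin b) Bool)
    (A : Matrix (Fin n) (Fin n) Bool) : ℕ :=
  #(univ.filter fun x : (Fin a → Fin n) × (Fin b → Fin n) =>
      StrictMono x.1 ∧ StrictMono x.2 ∧ ∀ i j, A (x.1 i) (x.2 j) = H i j)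

/-- B2. `Nat.card_eq_fintype_card, Fintype.card_subtype` (see `numCopies_patL` in P037L/BridgeL). -/
theorem numCopies_eq_cntR {k n : ℕ} (H : Matrix (Fin k) (Fin k) Bool)
    (A : Matrix (Fin n) (Fin n) Bool) : numCopies H A = cntR H A := by
  classical
  unfold numCopies cntR IsCopy
  rw [Nat.card_eq_fintype_card, Fintype.card_subtype]

/-- B2. `dup_count` with `Z = Fin b → Fin n`,
`W i x c = (StrictMono c ∧ ∀ j, A x (c j) = H i j)`; `card Z = n^b`; `SetC W` is the filter of `cntR`
(filter_congr; for the direction `StrictMono c` use the index `p`, resp. `0`). -/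
theorem row_dup {a b n : ℕ} (H : Matrix (Fin (a + 1)) (Fin b) Bool)
    (A : Matrix (Fin n) (Fin n) Bool) (p : Fin (a + 1)) :
    (cntR H A) ^ 2 ≤ (2 * cntR (H.submatrix p.predAbove id) A + cntR H A) * n ^ (a + b) := by
  classical
  have h := dup_count (Z := Fin b → Fin n) p
    (fun i x c => StrictMono c ∧ ∀ j, A x (c j) = H i j)
  have e1 : #(SetC (fun (i : Fin (a + 1)) (x : Fin n) (c : Fin b → Fin n) =>
      StrictMono c ∧ ∀ j, A x (c j) = H i j)) = cntR H A := by
    unfold SetC cntR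
    congr 1
    ext x
    simp only [Finset.mem_filter, Finset.mem_univ, true_and]
    constructor
    · rintro ⟨h1, h2⟩
      exact ⟨h1, (h2 p).1, fun i j => (h2 i).2 j⟩
    · rintro ⟨h1, h2, h3⟩
      exact ⟨h1, fun i => ⟨h2, fun j => h3 i j⟩⟩
  have e2 : #(SetC (fun (i : Fin (a + 2)) (x : Fin n) (c : Fin b → Fin n) =>
      StrictMono c ∧ ∀ j, A x (c j) = H (p.predAbove i) j)) = cntR (H.submatrix p.predAbove id) A := by
    unfold SetC cntR
    congr 1
    ext x
    simp only [Finset.mem_filter, Finset.mem_univ, true_and]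
    constructor
    · rintro ⟨h1, h2⟩
      exact ⟨h1, (h2 0).1, fun i j => (h2 i).2 j⟩
    · rintro ⟨h1, h2, h3⟩
      exact ⟨h1, fun i => ⟨h2, fun j => h3 i j⟩⟩
  rw [e1, e2] at h
  have e3 : n ^ a * Fintype.card (Fin b → Fin n) = n ^ (a + b) := by
    simp [pow_add]
  rw [e3] at h
  exact h

/-- B2. `dup_count` with `Z = Fin a → Fin n`,
`W j y r = (StrictMono r ∧ ∀ i, A (r i) y = H i j)`; the two products are swapped
(`Finset.card_equiv (Equiv.prodComm _ _)`). -/
theorem col_dup {a b n : ℕ} (H : Matrix (Fin a) (Fin (b + 1)) Bool)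
    (A : Matrix (Fin n) (Fin n) Bool) (q : Fin (b + 1)) :
    (cntR H A) ^ 2 ≤ (2 * cntR (H.submatrix id q.predAbove) A + cntR H A) * n ^ (a + b) := by
  classical
  have h := dup_count (Z := Fin a → Fin n) q
    (fun j y r => StrictMono r ∧ ∀ i, A (r i) y = H i j)
  have e1 : #(SetC (fun (j : Fin (b + 1)) (y : Fin n) (r : Fin a → Fin n) =>
      StrictMono r ∧ ∀ i, A (r i) y = H i j)) = cntR H A := by
    unfold SetC cntR
    apply Finset.card_equiv (Equiv.prodComm _ _)
    intro x
    simp only [Finset.mem_filter, Finset.mem_univ, true_and, Equiv.prodComm_apply, Prod.fst_swap,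
      Prod.snd_swap]
    constructor
    · rintro ⟨h1, h2⟩
      exact ⟨(h2 q).1, h1, fun i j => (h2 j).2 i⟩
    · rintro ⟨h1, h2, h3⟩
      exact ⟨h2, fun j => ⟨h1, fun i => h3 i j⟩⟩
  have e2 : #(SetC (fun (j : Fin (b + 2)) (y : Fin n) (r : Fin a → Fin n) =>
      StrictMono r ∧ ∀ i, A (r i) y = H i (q.predAbove j))) = cntR (H.submatrix id q.predAbove) A := by
    unfold SetC cntR
    apply Finset.card_equiv (Equiv.prodComm _ _)
    intro x
    simp only [Finset.mem_filter, Finset.mem_univ, true_and, Equiv.prodComm_apply, Prod.fst_swap,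
      Prod.snd_swap]
    constructor
    · rintro ⟨h1, h2⟩
      exact ⟨(h2 0).1, h1, fun i j => (h2 j).2 i⟩
    · rintro ⟨h1, h2, h3⟩
      exact ⟨h2, fun j => ⟨h1, fun i => h3 i j⟩⟩
  rw [e1, e2] at h
  have e3 : n ^ b * Fintype.card (Fin a → Fin n) = n ^ (a + b) := by
    simp [pow_add, mul_comm]
  rw [e3] at h
  exact h

end Vale.Agent.Lib.P037B
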