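import Vale.Agent.Lib.P037B.Factor

/-!
# P037: from a removal statement for a rectangular `(a+1) × (a+2)` pattern to the polynomial removal
property of its square blow-ups
-/

namespace Vale.Agent.Lib.P037B
open Finset
open Vale.Agent.Lib.P037

/-- removal property of a rectangular pattern in the form `few copies ⇒ close to a free matrix`. -/
def RectRemoval {a b : ℕ} (C : Matrix (Fin a) (Fin b) Bool) : Prop :=
  ∃ c K : ℝ, 0 < c ∧ 0 < K ∧ ∀ n : ℕ, 1 ≤ n → ∀ ε : ℝ, 0 < ε → ε < 1 →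
    ∀ A : Matrix (Fin n) (Fin n) Bool, (cntR C A : ℝ) < c * ε ^ K * (n : ℝ) ^ (a + b) →
      ∃ B : Matrix (Fin n) (Fin n) Bool, cntR C B = 0 ∧ (numDiff A B : ℝ) ≤ ε * (n : ℝ) ^ 2

/-- numerics of a single duplication step. -/
theorem dup_numerics_one (e n N N1 : ℕ) (hn : 1 ≤ n) (δ : ℝ) (hδ : 0 < δ) (hδ1 : δ ≤ 1)
    (h1 : N ^ 2 ≤ (2 * N1 + N) * n ^ e) (hN : δ * (n : ℝ) ^ (e + 1) ≤ N) (hN1 : 1 ≤ N1) :
    (δ / 2) ^ (e + 2) * (n : ℝ) ^ (e + 2) ≤ N1 := by
  have hx : (1 : ℝ) ≤ n := by exact_mod_cast hn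
  have hx0 : (0 : ℝ) < n := by linarith
  have hN1R : (1 : ℝ) ≤ N1 := by exact_mod_cast hN1
  set x : ℝ := (n : ℝ) with hxdef
  rw [← mul_pow]
  by_cases hc : δ * x < 2
  · have h0 : 0 ≤ δ / 2 * x := by positivity
    have h1' : δ / 2 * x ≤ 1 := by linarith
    exact (pow_le_one₀ h0 h1').trans hN1R
  push Not at hc
  set P : ℝ := x ^ e with hP
  have hP0 : 0 < P := by positivity
  have h1R : (N : ℝ) ^ 2 ≤ (2 * (N1 : ℝ) + N) * P := by
    have : ((N ^ 2 : ℕ) : ℝ) ≤ (((2 * N1 + N) * n ^ e : ℕ) : ℝ) := by exact_mod_cast h1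
    push_cast at this
    exact this
  have hNR : δ * x * P ≤ N := by
    have e' : δ * x * P = δ * x ^ (e + 1) := by
      rw [hP]; ring
    rw [e']; exact hN
  have s1 : (N : ℝ) ^ 2 ≤ 4 * P * N1 := by
    apply dup_step _ _ _ (by positivity) h1R
    have : 2 * P ≤ δ * x * P := mul_le_mul_of_nonneg_right hc hP0.le
    linarith
  have hN1' : (δ / 2) ^ 2 * (x ^ 2 * P) ≤ N1 := by
    have a1 : (δ * x * P) ^ 2 ≤ (N : ℝ) ^ 2 := pow_le_pow_left₀ (by positivity) hNR 2
    have a2 : (4 * P) * ((δ / 2) ^ 2 * (x ^ 2 * P)) ≤ (4 * P) * N1 := by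
      calc (4 * P) * ((δ / 2) ^ 2 * (x ^ 2 * P)) = (δ * x * P) ^ 2 := by ring
        _ ≤ (N : ℝ) ^ 2 := a1
        _ ≤ 4 * P * N1 := s1
    exact le_of_mul_le_mul_left a2 (by positivity)
  have hsmall : (δ / 2) ^ (e + 2) ≤ (δ / 2) ^ 2 := by
    apply pow_le_pow_of_le_one (by positivity) _ (by omega)
    linarith
  calc (δ / 2 * x) ^ (e + 2) = (δ / 2) ^ (e + 2) * x ^ (e + 2) := by rw [mul_pow]
    _ ≤ (δ / 2) ^ 2 * x ^ (e + 2) := mul_le_mul_of_nonneg_right hsmall (by positivity)
    _ = (δ / 2) ^ 2 * (x ^ 2 * P) := by rw [hP]; ring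
    _ ≤ N1 := hN1'

/-- a matrix without copy of `C` has no copy of the pattern with one row repeated. -/
theorem isFree_of_cntR_eq_zero {a n : ℕ} (C : Matrix (Fin (a + 1)) (Fin (a + 2)) Bool)
    (p : Fin (a + 1)) (B : Matrix (Fin n) (Fin n) Bool) (hB : cntR C B = 0) :
    IsFree (C.submatrix p.predAbove id) B := by
  classical
  intro r c hc
  obtain ⟨hr, hcc, hA⟩ := hc
  unfold cntR at hB
  rw [Finset.card_eq_zero] at hB
  have hmem : ((r ∘ p.castSucc.succAbove, c) : (Fin (a + 1) → Fin n) × (Fin (a + 2) → Fin n)) ∈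
      (univ.filter fun x : (Fin (a + 1) → Fin n) × (Fin (a + 2) → Fin n) =>
        StrictMono x.1 ∧ StrictMono x.2 ∧ ∀ i j, B (x.1 i) (x.2 j) = C i j) := by
    rw [Finset.mem_filter]
    refine ⟨Finset.mem_univ _, hr.comp (Fin.strictMono_succAbove _), hcc, ?_⟩
    intro i j
    have := hA (p.castSucc.succAbove i) j
    simp only [Matrix.submatrix_apply, Fin.predAbove_succAbove, id] at this
    simpa using this
  rw [hB] at hmem
  exact absurd hmem (Finset.notMem_empty _)

/-- BRIDGE.  Rectangular removal for `C` gives `PolyRemoval` for `C` with the row `p` repeated. -/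
theorem polyRemoval_of_rectRemoval {a : ℕ} (C : Matrix (Fin (a + 1)) (Fin (a + 2)) Bool)
    (p : Fin (a + 1)) (h : RectRemoval C) : PolyRemoval (C.submatrix p.predAbove id) := by
  obtain ⟨c, K, hc, hK, hC⟩ := h
  set c₁ : ℝ := min c 1 with hc₁
  have hc₁0 : 0 < c₁ := lt_min hc one_pos
  have hc₁1 : c₁ ≤ 1 := min_le_right _ _
  have hc₁c : c₁ ≤ c := min_le_left _ _
  set e : ℕ := a + (a + 2) with he
  have h2K : (0 : ℝ) < (1 / 2 : ℝ) ^ K := Real.rpow_pos_of_pos (by norm_num) K
  refine ⟨(c₁ * (1 / 2 : ℝ) ^ K / 2) ^ (e + 2), K * ((e + 2 : ℕ) : ℝ), by positivity,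
    by positivity, ?_⟩
  intro n hn ε hε hε1 A hA
  have hnR : (0 : ℝ) < n := by exact_mod_cast hn
  have hpos : 0 < distFree (C.submatrix p.predAbove id) A := lt_of_lt_of_le hε hA
  have hεC0 : 0 < ε ^ K := Real.rpow_pos_of_pos hε K
  have hεC1 : ε ^ K ≤ 1 := Real.rpow_le_one hε.le hε1.le hK.le
  have hhalf : (ε / 2) ^ K = (1 / 2 : ℝ) ^ K * ε ^ K := by
    rw [← Real.mul_rpow (by norm_num) hε.le]
    congr 1
    ring
  have h2K1 : (1 / 2 : ℝ) ^ K ≤ 1 := Real.rpow_le_one (by norm_num) (by norm_num) hK.le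
  set δ : ℝ := c₁ * (1 / 2 : ℝ) ^ K * ε ^ K with hδ
  have hδ0 : 0 < δ := by positivity
  have hδ1 : δ ≤ 1 := by
    have : c₁ * (1 / 2 : ℝ) ^ K ≤ 1 * 1 := mul_le_mul hc₁1 h2K1 h2K.le zero_le_one
    calc δ ≤ (1 * 1) * 1 := mul_le_mul this hεC1 hεC0.le (by norm_num)
      _ = 1 := by norm_num
  -- many copies of the rectangular pattern
  have hN : δ * (n : ℝ) ^ (e + 1) ≤ (cntR C A : ℕ) := by
    by_contra hcon
    push Not at hcon
    have hlt : (cntR C A : ℝ) < c * (ε / 2) ^ K * (n : ℝ) ^ ((a + 1) + (a + 2)) := by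
      have e1 : (a + 1) + (a + 2) = e + 1 := by rw [he]; ring
      rw [e1, hhalf]
      refine lt_of_lt_of_le hcon ?_
      apply mul_le_mul_of_nonneg_right _ (by positivity)
      rw [hδ, mul_assoc]
      exact mul_le_mul_of_nonneg_right hc₁c (by positivity)
    obtain ⟨B, hB0, hBd⟩ := hC n hn (ε / 2) (by linarith) (by linarith) A hlt
    have hfree := isFree_of_cntR_eq_zero C p B hB0
    have hle : sInf {d : ℕ | ∃ B : Matrix (Fin n) (Fin n) Bool,
        IsFree (C.submatrix p.predAbove id) B ∧ numDiff A B = d} ≤ numDiff A B :=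
      Nat.sInf_le ⟨B, hfree, rfl⟩
    have : distFree (C.submatrix p.predAbove id) A ≤ ε / 2 := by
      unfold distFree
      rw [div_le_iff₀ (by positivity)]
      calc ((sInf {d : ℕ | ∃ B : Matrix (Fin n) (Fin n) Bool,
              IsFree (C.submatrix p.predAbove id) B ∧ numDiff A B = d} : ℕ) : ℝ)
          ≤ (numDiff A B : ℝ) := by exact_mod_cast hle
        _ ≤ ε / 2 * (n : ℝ) ^ 2 := hBd
    linarith
  have h1 := row_dup C A p
  have hN1 : 1 ≤ cntR (C.submatrix p.predAbove id) A := by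
    have := one_le_numCopies _ A hpos
    rw [numCopies_eq_cntR] at this
    exact this
  have key := dup_numerics_one e n _ _ hn δ hδ0 hδ1 h1 hN hN1
  rw [numCopies_eq_cntR]
  have e1 : ε ^ (K * ((e + 2 : ℕ) : ℝ)) = (ε ^ K) ^ (e + 2) := by
    rw [Real.rpow_mul hε.le, Real.rpow_natCast]
  have e2 : (c₁ * (1 / 2 : ℝ) ^ K / 2) ^ (e + 2) * ε ^ (K * ((e + 2 : ℕ) : ℝ))
      = (δ / 2) ^ (e + 2) := by
    rw [e1, hδ, ← mul_pow]
    congr 1
    ring
  have e3 : 2 * (a + 2) = e + 2 := by rw [he]; ring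
  rw [e2, e3]
  exact key

/-- a monotone non-injective surjection onto `Fin (a+1)` lifts to a monotone surjection onto
`Fin (a+2)` through an elementary degeneracy. -/
theorem exists_lift {m a : ℕ} (ρ : Fin (m + 1) → Fin (a + 1)) (hρ : Monotone ρ)
    (hs : Function.Surjective ρ) (hni : ¬ Function.Injective ρ) :
    ∃ (p : Fin (a + 1)) (ρ' : Fin (m + 1) → Fin (a + 2)), Monotone ρ' ∧ Function.Surjective ρ' ∧
      ∀ j, ρ j = p.predAbove (ρ' j) := by
  obtain ⟨i, hi⟩ := exists_consecutive ρ hρ hni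
  set p := ρ i.castSucc with hp
  have hlt : i.castSucc < i.succ := Fin.castSucc_lt_succ
  refine ⟨p, fun j => if j ≤ i.castSucc then (ρ j).castSucc else (ρ j).succ, ?_, ?_, ?_⟩
  · intro j j' hjj
    have hr := hρ hjj
    have hr' : (ρ j).val ≤ (ρ j').val := hr
    show (if j ≤ i.castSucc then (ρ j).castSucc else (ρ j).succ)
      ≤ (if j' ≤ i.castSucc then (ρ j').castSucc else (ρ j').succ)
    split_ifs with h1 h2 h2
    · rw [Fin.le_def]; simpa using hr'
    · rw [Fin.le_def]; simp; omega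
    · exact absurd (hjj.trans h2) h1
    · rw [Fin.le_def]; simpa using hr'
  · intro t
    by_cases ht : t.val ≤ p.val
    · have hb : t.val < a + 1 := lt_of_le_of_lt ht p.isLt
      obtain ⟨j0, hj0⟩ := hs ⟨t.val, hb⟩
      refine ⟨min j0 i.castSucc, ?_⟩
      have hle : min j0 i.castSucc ≤ i.castSucc := min_le_right _ _
      have hval : ρ (min j0 i.castSucc) = ⟨t.val, hb⟩ := by
        rcases le_total j0 i.castSucc with h | h
        · rw [min_eq_left h, hj0]
        · rw [min_eq_right h]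
          apply le_antisymm
          · rw [← hj0]; exact hρ h
          · rw [Fin.le_def]; exact ht
      show (if min j0 i.castSucc ≤ i.castSucc then (ρ (min j0 i.castSucc)).castSucc
        else (ρ (min j0 i.castSucc)).succ) = t
      rw [if_pos hle, hval]
      apply Fin.ext
      simp
    · push Not at ht
      have hb : t.val - 1 < a + 1 := by have := t.isLt; omega
      obtain ⟨j0, hj0⟩ := hs ⟨t.val - 1, hb⟩
      refine ⟨max j0 i.succ, ?_⟩
      have hge : ¬ max j0 i.succ ≤ i.castSucc := by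
        intro hcon
        exact absurd (lt_of_lt_of_le hlt ((le_max_right _ _).trans hcon)) (lt_irrefl _)
      have hval : ρ (max j0 i.succ) = ⟨t.val - 1, hb⟩ := by
        rcases le_total i.succ j0 with h | h
        · rw [max_eq_left h, hj0]
        · rw [max_eq_right h]
          apply le_antisymm
          · rw [← hi, Fin.le_def]
            show p.val ≤ t.val - 1
            omega
          · rw [← hj0]; exact hρ h
      show (if max j0 i.succ ≤ i.castSucc then (ρ (max j0 i.succ)).castSucc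
        else (ρ (max j0 i.succ)).succ) = t
      rw [if_neg hge, hval]
      apply Fin.ext
      simp
      omega
  · intro j
    show ρ j = p.predAbove (if j ≤ i.castSucc then (ρ j).castSucc else (ρ j).succ)
    split_ifs with h1
    · rw [Fin.predAbove_castSucc_of_le p (ρ j) (hρ h1)]
    · push Not at h1
      have h2 : i.succ ≤ j := by
        rw [Fin.le_def]
        have : i.castSucc.val < j.val := h1
        simp at this ⊢
        omega
      rw [Fin.predAbove_succ_of_le p (ρ j) (hρ h1.le)]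

/-- all square blow-ups of a rectangular `(a+1) × (a+2)` pattern with the removal property. -/
theorem polyRemoval_rect_blowup {a k : ℕ} (C : Matrix (Fin (a + 1)) (Fin (a + 2)) Bool)
    (h : RectRemoval C) (ρ : Fin k → Fin (a + 1)) (γ : Fin k → Fin (a + 2))
    (hρ : Monotone ρ) (hρs : Function.Surjective ρ) (hγ : Monotone γ)
    (hγs : Function.Surjective γ) : PolyRemoval (C.submatrix ρ γ) := by
  have hk : a + 2 ≤ k := by
    have := Fintype.card_le_of_surjective γ hγs
    simpa using this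
  obtain ⟨m, rfl⟩ : ∃ m, k = m + 1 := ⟨k - 1, by omega⟩
  have hni : ¬ Function.Injective ρ := by
    intro hinj
    have := Fintype.card_le_of_injective ρ hinj
    simp at this
    omega
  obtain ⟨p, ρ', hm, hsur, hfac⟩ := exists_lift ρ hρ hρs hni
  have e : C.submatrix ρ γ = (C.submatrix p.predAbove id).submatrix ρ' γ := by
    ext i j
    simp only [Matrix.submatrix_apply, id]
    rw [hfac i]
  rw [e]
  exact polyRemoval_blowup _ ρ' γ hm hsur hγ hγs (polyRemoval_of_rectRemoval C p h)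

end Vale.Agent.Lib.P037B
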