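import Vale.Agent.Lib.P037B.RectBridge

/-!
# P037: rectangular patterns: the removal property passes to all blow-ups, and for square patterns
it gives `PolyRemoval`
-/

namespace Vale.Agent.Lib.P037B
open Finset
open Vale.Agent.Lib.P037

theorem cntR_eq_zero_iff {a b n : ℕ} (C : Matrix (Fin a) (Fin b) Bool)
    (B : Matrix (Fin n) (Fin n) Bool) :
    cntR C B = 0 ↔ ∀ (r : Fin a → Fin n) (c : Fin b → Fin n),
      ¬ (StrictMono r ∧ StrictMono c ∧ ∀ i j, B (r i) (c j) = C i j) := by
  classical
  unfold cntR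
  rw [Finset.card_eq_zero, Finset.filter_eq_empty_iff]
  constructor
  · intro h r c
    exact h (Finset.mem_univ (r, c))
  · intro h x _
    exact h x.1 x.2

theorem cntR_rowDup_eq_zero {a b n : ℕ} (C : Matrix (Fin (a + 1)) (Fin b) Bool) (p : Fin (a + 1))
    (B : Matrix (Fin n) (Fin n) Bool) (hB : cntR C B = 0) :
    cntR (C.submatrix p.predAbove id) B = 0 := by
  rw [cntR_eq_zero_iff] at hB ⊢
  rintro r c ⟨hr, hc, hA⟩
  refine hB (r ∘ p.castSucc.succAbove) c ⟨hr.comp (Fin.strictMono_succAbove _), hc, ?_⟩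
  intro i j
  have := hA (p.castSucc.succAbove i) j
  simp only [Matrix.submatrix_apply, Fin.predAbove_succAbove, id] at this
  simpa using this

theorem cntR_colDup_eq_zero {a b n : ℕ} (C : Matrix (Fin a) (Fin (b + 1)) Bool) (q : Fin (b + 1))
    (B : Matrix (Fin n) (Fin n) Bool) (hB : cntR C B = 0) :
    cntR (C.submatrix id q.predAbove) B = 0 := by
  rw [cntR_eq_zero_iff] at hB ⊢
  rintro r c ⟨hr, hc, hA⟩
  refine hB r (c ∘ q.castSucc.succAbove) ⟨hr, hc.comp (Fin.strictMono_succAbove _), ?_⟩
  intro i j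
  have := hA i (q.castSucc.succAbove j)
  simp only [Matrix.submatrix_apply, Fin.predAbove_succAbove, id] at this
  simpa using this

/-- abstract one-step closure. -/
theorem rectRemoval_of_dup {a b a' b' : ℕ} (C : Matrix (Fin a) (Fin b) Bool)
    (C' : Matrix (Fin a') (Fin b') Bool) (e : ℕ) (he1 : a + b = e + 1) (he2 : a' + b' = e + 2)
    (hdup : ∀ (n : ℕ) (A : Matrix (Fin n) (Fin n) Bool),
      (cntR C A) ^ 2 ≤ (2 * cntR C' A + cntR C A) * n ^ e)
    (hfree : ∀ (n : ℕ) (B : Matrix (Fin n) (Fin n) Bool), cntR C B = 0 → cntR C' B = 0)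
    (h : RectRemoval C) : RectRemoval C' := by
  obtain ⟨c, K, hc, hK, hC⟩ := h
  set c₁ : ℝ := min c 1 with hc₁
  have hc₁0 : 0 < c₁ := lt_min hc one_pos
  have hc₁1 : c₁ ≤ 1 := min_le_right _ _
  have hc₁c : c₁ ≤ c := min_le_left _ _
  refine ⟨(c₁ / 2) ^ (e + 2), K * ((e + 2 : ℕ) : ℝ), by positivity, by positivity, ?_⟩
  intro n hn ε hε hε1 A hA
  by_cases h0 : cntR C' A = 0
  · refine ⟨A, h0, ?_⟩
    have : numDiff A A = 0 := by
      unfold numDiff
      simp
    rw [this]
    simp only [Nat.cast_zero]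
    positivity
  have hN1 : 1 ≤ cntR C' A := Nat.one_le_iff_ne_zero.2 h0
  have hεC0 : 0 < ε ^ K := Real.rpow_pos_of_pos hε K
  have hεC1 : ε ^ K ≤ 1 := Real.rpow_le_one hε.le hε1.le hK.le
  set δ : ℝ := c₁ * ε ^ K with hδ
  have hδ0 : 0 < δ := by positivity
  have hδ1 : δ ≤ 1 := by
    calc δ ≤ 1 * 1 := mul_le_mul hc₁1 hεC1 hεC0.le zero_le_one
      _ = 1 := one_mul 1
  have hlt : (cntR C A : ℝ) < c * ε ^ K * (n : ℝ) ^ (a + b) := by
    by_contra hcon
    push Not at hcon
    have hN : δ * (n : ℝ) ^ (e + 1) ≤ (cntR C A : ℕ) := by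
      rw [← he1]
      refine le_trans ?_ hcon
      apply mul_le_mul_of_nonneg_right _ (by positivity)
      exact mul_le_mul_of_nonneg_right hc₁c hεC0.le
    have key := dup_numerics_one e n _ _ hn δ hδ0 hδ1 (hdup n A) hN hN1
    have e1 : ε ^ (K * ((e + 2 : ℕ) : ℝ)) = (ε ^ K) ^ (e + 2) := by
      rw [Real.rpow_mul hε.le, Real.rpow_natCast]
    have e2 : (c₁ / 2) ^ (e + 2) * ε ^ (K * ((e + 2 : ℕ) : ℝ)) = (δ / 2) ^ (e + 2) := by
      rw [e1, hδ, ← mul_pow]
      congr 1
      ring
    rw [e2, he2] at hA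
    linarith
  obtain ⟨B, hB0, hBd⟩ := hC n hn ε hε hε1 A hlt
  exact ⟨B, hfree n B hB0, hBd⟩

theorem rectRemoval_rowDup {a b : ℕ} (C : Matrix (Fin (a + 1)) (Fin b) Bool) (p : Fin (a + 1))
    (h : RectRemoval C) : RectRemoval (C.submatrix p.predAbove id) :=
  rectRemoval_of_dup C _ (a + b) (by omega) (by omega) (fun _ A => row_dup C A p)
    (fun _ B hB => cntR_rowDup_eq_zero C p B hB) h

theorem rectRemoval_colDup {a b : ℕ} (C : Matrix (Fin a) (Fin (b + 1)) Bool) (q : Fin (b + 1))
    (h : RectRemoval C) : RectRemoval (C.submatrix id q.predAbove) :=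
  rectRemoval_of_dup C _ (a + b) (by omega) (by omega) (fun _ A => col_dup C A q)
    (fun _ B hB => cntR_colDup_eq_zero C q B hB) h

theorem rectRemoval_rows {a b a' : ℕ} (C : Matrix (Fin a) (Fin b) Bool) (ρ : Fin a' → Fin a)
    (hρ : Monotone ρ) (hρs : Function.Surjective ρ) (h : RectRemoval C) :
    RectRemoval (C.submatrix ρ id) := by
  induction a' with
  | zero =>
    have hk : 0 = a := by
      have := Fintype.card_of_bijective ⟨Function.injective_of_subsingleton ρ, hρs⟩
      simpa using this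
    subst hk
    have e1 : ρ = id := Subsingleton.elim _ _
    rw [e1, Matrix.submatrix_id_id]
    exact h
  | succ m ih =>
    by_cases hinj : Function.Injective ρ
    · have hk : m + 1 = a := by
        have := Fintype.card_of_bijective ⟨hinj, hρs⟩
        simpa using this
      subst hk
      have e1 : ρ = id := eq_id_of_monotone_bijective ρ hρ ⟨hinj, hρs⟩
      rw [e1, Matrix.submatrix_id_id]
      exact h
    · obtain ⟨p, hp⟩ := exists_consecutive ρ hρ hinj
      obtain ⟨ρ₁, m1, s1, f1⟩ := factor_predAbove ρ hρ hρs p hp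
      have ih' := ih ρ₁ m1 s1
      cases m with
      | zero => exact p.elim0
      | succ m' =>
        have hd := rectRemoval_rowDup (C.submatrix ρ₁ id) p ih'
        have e : (C.submatrix ρ₁ id).submatrix p.predAbove id = C.submatrix ρ id := by
          ext i j
          simp only [Matrix.submatrix_apply]
          rw [f1 i]
          rfl
        rw [← e]
        exact hd

theorem rectRemoval_cols {a b b' : ℕ} (C : Matrix (Fin a) (Fin b) Bool) (γ : Fin b' → Fin b)
    (hγ : Monotone γ) (hγs : Function.Surjective γ) (h : RectRemoval C) :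
    RectRemoval (C.submatrix id γ) := by
  induction b' with
  | zero =>
    have hk : 0 = b := by
      have := Fintype.card_of_bijective ⟨Function.injective_of_subsingleton γ, hγs⟩
      simpa using this
    subst hk
    have e1 : γ = id := Subsingleton.elim _ _
    rw [e1, Matrix.submatrix_id_id]
    exact h
  | succ m ih =>
    by_cases hinj : Function.Injective γ
    · have hk : m + 1 = b := by
        have := Fintype.card_of_bijective ⟨hinj, hγs⟩
        simpa using this
      subst hk
      have e1 : γ = id := eq_id_of_monotone_bijective γ hγ ⟨hinj, hγs⟩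
      rw [e1, Matrix.submatrix_id_id]
      exact h
    · obtain ⟨q, hq⟩ := exists_consecutive γ hγ hinj
      obtain ⟨γ₁, m1, s1, f1⟩ := factor_predAbove γ hγ hγs q hq
      have ih' := ih γ₁ m1 s1
      cases m with
      | zero => exact q.elim0
      | succ m' =>
        have hd := rectRemoval_colDup (C.submatrix id γ₁) q ih'
        have e : (C.submatrix id γ₁).submatrix id q.predAbove = C.submatrix id γ := by
          ext i j
          simp only [Matrix.submatrix_apply]
          rw [f1 j]
          rfl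
        rw [← e]
        exact hd

/-- for a square pattern the rectangular removal property gives `PolyRemoval`. -/
theorem polyRemoval_of_rectRemoval_sq {k : ℕ} (H : Matrix (Fin k) (Fin k) Bool)
    (h : RectRemoval H) : PolyRemoval H := by
  obtain ⟨c, K, hc, hK, hC⟩ := h
  have h2K : (0 : ℝ) < (1 / 2 : ℝ) ^ K := Real.rpow_pos_of_pos (by norm_num) K
  refine ⟨c * (1 / 2 : ℝ) ^ K, K, by positivity, hK, ?_⟩
  intro n hn ε hε hε1 A hA
  have hnR : (0 : ℝ) < n := by exact_mod_cast hn
  have hhalf : (ε / 2) ^ K = (1 / 2 : ℝ) ^ K * ε ^ K := by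
    rw [← Real.mul_rpow (by norm_num) hε.le]
    congr 1
    ring
  by_contra hcon
  push Not at hcon
  rw [numCopies_eq_cntR] at hcon
  have hlt : (cntR H A : ℝ) < c * (ε / 2) ^ K * (n : ℝ) ^ (k + k) := by
    have e1 : k + k = 2 * k := by ring
    rw [e1, hhalf, ← mul_assoc]
    exact hcon
  obtain ⟨B, hB0, hBd⟩ := hC n hn (ε / 2) (by linarith) (by linarith) A hlt
  have hfree : IsFree H B := by
    rw [cntR_eq_zero_iff] at hB0
    intro r c hc
    exact hB0 r c hc
  have hle : sInf {d : ℕ | ∃ B : Matrix (Fin n) (Fin n) Bool, IsFree H B ∧ numDiff A B = d}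
      ≤ numDiff A B := Nat.sInf_le ⟨B, hfree, rfl⟩
  have : distFree H A ≤ ε / 2 := by
    unfold distFree
    rw [div_le_iff₀ (by positivity)]
    calc ((sInf {d : ℕ | ∃ B : Matrix (Fin n) (Fin n) Bool, IsFree H B ∧ numDiff A B = d} : ℕ) : ℝ)
        ≤ (numDiff A B : ℝ) := by exact_mod_cast hle
      _ ≤ ε / 2 * (n : ℝ) ^ 2 := hBd
  linarith

/-- MAIN BRIDGE: a rectangular pattern with the removal property: all its square blow-ups have
the polynomial removal property of Q1. -/
theorem polyRemoval_of_rect {a b K : ℕ} (C : Matrix (Fin a) (Fin b) Bool) (h : RectRemoval C)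
    (ρ : Fin K → Fin a) (γ : Fin K → Fin b) (hρ : Monotone ρ) (hρs : Function.Surjective ρ)
    (hγ : Monotone γ) (hγs : Function.Surjective γ) : PolyRemoval (C.submatrix ρ γ) := by
  have h1 := rectRemoval_rows C ρ hρ hρs h
  have h2 := rectRemoval_cols (C.submatrix ρ id) γ hγ hγs h1
  have e : (C.submatrix ρ id).submatrix id γ = C.submatrix ρ γ := by
    ext i j
    simp only [Matrix.submatrix_apply, id]
  rw [e] at h2
  exact polyRemoval_of_rectRemoval_sq _ h2

end Vale.Agent.Lib.P037B
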