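import Mathlib

/-!
# P037, blow-ups: numerics of one step
-/

namespace Vale.Agent.Lib.P037B

/-- one Cauchy-Schwarz step: `N^2 ≤ (2 N1 + N) P` and `N ≥ 2 P` give `N^2 ≤ 4 P N1`. -/
theorem dup_step (N N1 P : ℝ) (hN0 : 0 ≤ N) (h : N ^ 2 ≤ (2 * N1 + N) * P) (h2 : 2 * P ≤ N) :
    N ^ 2 ≤ 4 * P * N1 := by
  have : N * (2 * P) ≤ N * N := mul_le_mul_of_nonneg_left h2 hN0
  nlinarith

/-- B3d. Pure numerics.  `N^2 ≤ (2 N1 + N) n^(2k+1)`, `N1^2 ≤ (2 N2 + N1) n^(2k+2)`,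
`δ n^(2k+2) ≤ N`, `1 ≤ N2`, `0 < δ ≤ 1`.  Then `(δ^2/8)^(2k+4) n^(2k+4) ≤ N2`.
If `δ^2 n < 8` the left side is `< 1`.  Otherwise `δ n ≥ 2`, so `N ≤ N^2/(2 n^(2k+1))`, hence
`N1 ≥ N^2/(4 n^(2k+1)) ≥ (δ^2/4) n^(2k+3)`; the same again with `δ1 = δ^2/4`, `δ1 n ≥ 2`:
`N2 ≥ (δ1^2/4) n^(2k+4) = (δ^4/64) n^(2k+4)` and `(δ^2/8)^(2k+4) ≤ (δ^2/8)^2`. -/
theorem dup_numerics (k n N N1 N2 : ℕ) (hn : 1 ≤ n) (δ : ℝ) (hδ : 0 < δ) (hδ1 : δ ≤ 1)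
    (h1 : N ^ 2 ≤ (2 * N1 + N) * n ^ (k + (k + 1)))
    (h2 : N1 ^ 2 ≤ (2 * N2 + N1) * n ^ ((k + 2) + k))
    (hN : δ * (n : ℝ) ^ (2 * (k + 1)) ≤ N) (hN2 : 1 ≤ N2) :
    (δ ^ 2 / 8) ^ (2 * (k + 2)) * (n : ℝ) ^ (2 * (k + 2)) ≤ N2 := by
  have hx : (1 : ℝ) ≤ n := by exact_mod_cast hn
  have hx0 : (0 : ℝ) < n := by linarith
  have hN2R : (1 : ℝ) ≤ N2 := by exact_mod_cast hN2
  set x : ℝ := (n : ℝ) with hxdef
  rw [← mul_pow]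
  by_cases hc : δ ^ 2 * x < 8
  · have h0 : 0 ≤ δ ^ 2 / 8 * x := by positivity
    have h1' : δ ^ 2 / 8 * x ≤ 1 := by linarith
    exact (pow_le_one₀ h0 h1').trans hN2R
  push Not at hc
  set P : ℝ := x ^ (2 * k + 1) with hP
  have hP0 : 0 < P := by positivity
  have h1R : (N : ℝ) ^ 2 ≤ (2 * (N1 : ℝ) + N) * P := by
    have : ((N ^ 2 : ℕ) : ℝ) ≤ (((2 * N1 + N) * n ^ (k + (k + 1)) : ℕ) : ℝ) := by exact_mod_cast h1
    push_cast at this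
    have e : k + (k + 1) = 2 * k + 1 := by ring
    rw [e] at this
    exact this
  have h2R : (N1 : ℝ) ^ 2 ≤ (2 * (N2 : ℝ) + N1) * (x * P) := by
    have : ((N1 ^ 2 : ℕ) : ℝ) ≤ (((2 * N2 + N1) * n ^ ((k + 2) + k) : ℕ) : ℝ) := by exact_mod_cast h2
    push_cast at this
    have e : x * P = x ^ ((k + 2) + k) := by
      rw [hP]; ring
    rw [e]
    exact this
  have hNR : δ * x * P ≤ N := by
    have e : δ * x * P = δ * x ^ (2 * (k + 1)) := by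
      rw [hP]; ring
    rw [e]; exact hN
  have hd2 : δ ^ 2 ≤ δ := by nlinarith
  have hdx : 8 ≤ δ * x := by
    have : δ ^ 2 * x ≤ δ * x := mul_le_mul_of_nonneg_right hd2 hx0.le
    linarith
  -- first step
  have s1 : (N : ℝ) ^ 2 ≤ 4 * P * N1 := by
    apply dup_step _ _ _ (by positivity) h1R
    have : 2 * P ≤ δ * x * P := mul_le_mul_of_nonneg_right (by linarith) hP0.le
    linarith
  have hN1 : δ ^ 2 / 4 * x * (x * P) ≤ N1 := by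
    have a1 : (δ * x * P) ^ 2 ≤ (N : ℝ) ^ 2 := pow_le_pow_left₀ (by positivity) hNR 2
    have a2 : (4 * P) * (δ ^ 2 / 4 * x * (x * P)) ≤ (4 * P) * N1 := by
      calc (4 * P) * (δ ^ 2 / 4 * x * (x * P)) = (δ * x * P) ^ 2 := by ring
        _ ≤ (N : ℝ) ^ 2 := a1
        _ ≤ 4 * P * N1 := s1
    exact le_of_mul_le_mul_left a2 (by positivity)
  have hQ0 : 0 < x * P := by positivity
  have s2 : (N1 : ℝ) ^ 2 ≤ 4 * (x * P) * N2 := by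
    apply dup_step _ _ _ (by positivity) h2R
    have : 2 * (x * P) ≤ δ ^ 2 / 4 * x * (x * P) :=
      mul_le_mul_of_nonneg_right (by linarith) hQ0.le
    linarith
  have hN2' : δ ^ 4 / 64 * (x ^ 2 * (x * P)) ≤ N2 := by
    have a1 : (δ ^ 2 / 4 * x * (x * P)) ^ 2 ≤ (N1 : ℝ) ^ 2 := pow_le_pow_left₀ (by positivity) hN1 2
    have a2 : (4 * (x * P)) * (δ ^ 4 / 64 * (x ^ 2 * (x * P))) ≤ (4 * (x * P)) * N2 := by
      calc (4 * (x * P)) * (δ ^ 4 / 64 * (x ^ 2 * (x * P))) = (δ ^ 2 / 4 * x * (x * P)) ^ 2 := by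
            ring
        _ ≤ (N1 : ℝ) ^ 2 := a1
        _ ≤ 4 * (x * P) * N2 := s2
    exact le_of_mul_le_mul_left a2 (by positivity)
  have hsmall : (δ ^ 2 / 8) ^ (2 * (k + 2)) ≤ (δ ^ 2 / 8) ^ 2 := by
    apply pow_le_pow_of_le_one (by positivity) _ (by omega)
    nlinarith
  calc (δ ^ 2 / 8 * x) ^ (2 * (k + 2)) = (δ ^ 2 / 8) ^ (2 * (k + 2)) * x ^ (2 * (k + 2)) := by
        rw [mul_pow]
    _ ≤ (δ ^ 2 / 8) ^ 2 * x ^ (2 * (k + 2)) := mul_le_mul_of_nonneg_right hsmall (by positivity)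
    _ = δ ^ 4 / 64 * (x ^ 2 * (x * P)) := by rw [hP]; ring
    _ ≤ N2 := hN2'

end Vale.Agent.Lib.P037B
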