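import Vale.Agent.Lib.P037B.StepFree
import Vale.Agent.Lib.P037B.StepNum

/-!
# P037, blow-ups: one step (duplicate one row and one column)
-/

namespace Vale.Agent.Lib.P037B
open Finset
open Vale.Agent.Lib.P037

/-- B3e. ONE STEP.  From `(c, C)` for `H` (wlog `c ≤ 1`: replace `c` by `min c 1`) take
`c' = (c^2/8)^(2(k+2))`, `C' = 2 * C * (2(k+2))`; `δ = c ε^C`;
`row_dup H A p`, `col_dup (H.submatrix p.predAbove id) A q`, `numCopies_eq_cntR`, `dup_numerics`. -/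
theorem polyRemoval_dup {k : ℕ} (H : Matrix (Fin (k + 1)) (Fin (k + 1)) Bool) (p q : Fin (k + 1))
    (h : PolyRemoval H) : PolyRemoval (H.submatrix p.predAbove q.predAbove) := by
  obtain ⟨c, C, hc, hC, hH⟩ := h
  set c₁ : ℝ := min c 1 with hc₁
  have hc₁0 : 0 < c₁ := lt_min hc one_pos
  have hc₁1 : c₁ ≤ 1 := min_le_right _ _
  have hc₁c : c₁ ≤ c := min_le_left _ _
  refine ⟨(c₁ ^ 2 / 8) ^ (2 * (k + 2)), C * ((2 * (2 * (k + 2)) : ℕ) : ℝ), by positivity,
    by positivity, ?_⟩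
  intro n hn ε hε hε1 A hA
  have hpos : 0 < distFree (H.submatrix p.predAbove q.predAbove) A := lt_of_lt_of_le hε hA
  have hA' : ε ≤ distFree H A := hA.trans (distFree_dup_le H p q A)
  have hN := hH n hn ε hε hε1 A hA'
  have hεC0 : 0 < ε ^ C := Real.rpow_pos_of_pos hε C
  have hεC1 : ε ^ C ≤ 1 := Real.rpow_le_one hε.le hε1.le hC.le
  set δ : ℝ := c₁ * ε ^ C with hδ
  have hδ0 : 0 < δ := by positivity
  have hδ1 : δ ≤ 1 := by
    calc δ ≤ 1 * 1 := mul_le_mul hc₁1 hεC1 hεC0.le zero_le_one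
      _ = 1 := one_mul 1
  have hN' : δ * (n : ℝ) ^ (2 * (k + 1)) ≤ (cntR H A : ℕ) := by
    rw [← numCopies_eq_cntR]
    refine le_trans ?_ hN
    apply mul_le_mul_of_nonneg_right _ (by positivity)
    exact mul_le_mul_of_nonneg_right hc₁c hεC0.le
  have h1 := row_dup H A p
  have h2 := col_dup (H.submatrix p.predAbove id) A q
  have hN2 : 1 ≤ cntR ((H.submatrix p.predAbove id).submatrix id q.predAbove) A := by
    have := one_le_numCopies _ A hpos
    rw [numCopies_eq_cntR] at this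
    exact this
  have key := dup_numerics k n _ _ _ hn δ hδ0 hδ1 h1 h2 hN' hN2
  rw [numCopies_eq_cntR]
  have e1 : ε ^ (C * ((2 * (2 * (k + 2)) : ℕ) : ℝ)) = (ε ^ C) ^ (2 * (2 * (k + 2))) := by
    rw [Real.rpow_mul hε.le, Real.rpow_natCast]
  have e2 : (c₁ ^ 2 / 8) ^ (2 * (k + 2)) * ε ^ (C * ((2 * (2 * (k + 2)) : ℕ) : ℝ))
      = (δ ^ 2 / 8) ^ (2 * (k + 2)) := by
    rw [e1, hδ, pow_mul (ε ^ C) 2, ← mul_pow]
    congr 1
    ring
  rw [e2]
  exact key

end Vale.Agent.Lib.P037B
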