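import Vale.Agent.Lib.P037B.Rect

/-!
# P037, blow-ups: freeness and distance under duplication
-/

namespace Vale.Agent.Lib.P037B
open Finset
open Vale.Agent.Lib.P037

theorem isFree_dup {k n : ℕ} (H : Matrix (Fin (k + 1)) (Fin (k + 1)) Bool) (p q : Fin (k + 1))
    (B : Matrix (Fin n) (Fin n) Bool) (hB : IsFree H B) :
    IsFree (H.submatrix p.predAbove q.predAbove) B := by
  intro r c hc
  obtain ⟨hr, hcc, hA⟩ := hc
  refine hB (r ∘ p.castSucc.succAbove) (c ∘ q.castSucc.succAbove) ⟨?_, ?_, ?_⟩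
  · exact hr.comp (Fin.strictMono_succAbove _)
  · exact hcc.comp (Fin.strictMono_succAbove _)
  · intro i j
    have := hA (p.castSucc.succAbove i) (q.castSucc.succAbove j)
    simp only [Matrix.submatrix_apply, Fin.predAbove_succAbove] at this
    simpa using this

theorem distFree_dup_le {k n : ℕ} (H : Matrix (Fin (k + 1)) (Fin (k + 1)) Bool) (p q : Fin (k + 1))
    (A : Matrix (Fin n) (Fin n) Bool) :
    distFree (H.submatrix p.predAbove q.predAbove) A ≤ distFree H A := by
  unfold distFree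
  apply div_le_div_of_nonneg_right _ (by positivity)
  have hne : {d : ℕ | ∃ B : Matrix (Fin n) (Fin n) Bool, IsFree H B ∧ numDiff A B = d}.Nonempty := by
    refine ⟨_, fun _ _ => !H 0 0, ?_, rfl⟩
    intro r c hc
    have := hc.2.2 0 0
    simp at this
  obtain ⟨B, hB, hd⟩ := Nat.sInf_mem hne
  have : sInf {d : ℕ | ∃ B : Matrix (Fin n) (Fin n) Bool,
        IsFree (H.submatrix p.predAbove q.predAbove) B ∧ numDiff A B = d}
      ≤ sInf {d : ℕ | ∃ B : Matrix (Fin n) (Fin n) Bool, IsFree H B ∧ numDiff A B = d} :=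
    Nat.sInf_le ⟨B, isFree_dup H p q B hB, hd⟩
  exact_mod_cast this

theorem one_le_numCopies {k n : ℕ} (H : Matrix (Fin k) (Fin k) Bool)
    (A : Matrix (Fin n) (Fin n) Bool) (h : 0 < distFree H A) : 1 ≤ numCopies H A := by
  classical
  by_contra hcon
  have h0 : numCopies H A = 0 := by omega
  have hfree : IsFree H A := by
    intro r c hc
    unfold numCopies at h0
    rw [Nat.card_eq_fintype_card, Fintype.card_eq_zero_iff] at h0
    exact h0.elim ⟨(r, c), hc⟩
  have hmem : 0 ∈ {d : ℕ | ∃ B : Matrix (Fin n) (Fin n) Bool, IsFree H B ∧ numDiff A B = d} := by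
    refine ⟨A, hfree, ?_⟩
    unfold numDiff
    simp
  have hs : sInf {d : ℕ | ∃ B : Matrix (Fin n) (Fin n) Bool, IsFree H B ∧ numDiff A B = d} = 0 :=
    Nat.le_zero.1 (Nat.sInf_le hmem)
  unfold distFree at h
  rw [hs] at h
  simp at h

end Vale.Agent.Lib.P037B
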